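import Vale.Agent.Lib.P183_Glue2

/-- If `L` is the congruence lattice of a finite algebra, and `U`, `D` are an upper set and a lower
set of `L` with a common point, then the doubling of `L` at the convex set `U ∩ D` is again the
congruence lattice of a finite algebra.  Every nonempty convex subset of `L` has this form. -/
theorem Vale.Agent.Results.P183.ConvexDoubling.result {L : Type} [PartialOrder L]
    (U : UpperSet L) (D : LowerSet L) (hUD : ∃ c, c ∈ U ∧ c ∈ D)
    (h : Vale.Agent.P183.Representable L) :
    Vale.Agent.P183.Representable (Vale.Agent.P183.ConvexDoubling L U D) :=
  Vale.Agent.P183.representable_convexDoubling U D hUD h
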