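import Vale.Agent.Lib.P183_Glue

/-- If `L` is the congruence lattice of a finite algebra, `D` is a lower set of `L` and `α ∈ D`,
then the doubling of `L` at the convex set `{v | α ≤ v ∧ v ∈ D}` is again the congruence lattice
of a finite algebra.  Taking `D` the principal lower set of `β` gives the doubling of an arbitrary
interval `[α, β]`. -/
theorem Vale.Agent.Results.P183.DoublingClosure.result {L : Type} [PartialOrder L] (α : L)
    (D : LowerSet L) (hα : α ∈ D) (h : Vale.Agent.P183.Representable L) :
    Vale.Agent.P183.Representable (Vale.Agent.P183.Doubling L α D) :=
  Vale.Agent.P183.representable_doubling α D hα h
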