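import Vale.Agent.Lib.P183_Glue3

/-- If `L` and `K` are congruence lattices of finite algebras, and `U`, `D` are an upper set and a
lower set of `L` with a common point, then the lattice obtained from `L` by replacing each point of
the convex set `U ∩ D` by a copy of `K` is again the congruence lattice of a finite algebra.  For
`K` the two-element chain this is the doubling of `L` at `U ∩ D`. -/
theorem Vale.Agent.Results.P183.Inflation.result {L K : Type} [PartialOrder L] [PartialOrder K]
    (U : UpperSet L) (D : LowerSet L) (hUD : ∃ c, c ∈ U ∧ c ∈ D)
    (hL : Vale.Agent.P183.Representable L) (hK : Vale.Agent.P183.Representable K) :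
    Vale.Agent.P183.Representable (Vale.Agent.P183.Inflation L K U D) :=
  Vale.Agent.P183.representable_inflation U D hUD hL hK
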