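import Vale.Agent.Lib.P183_Class

/-- Every poset obtained from a one-element poset by finitely many doublings at nonempty convex
sets (every finite congruence-normal lattice) is the congruence lattice of a finite algebra. -/
theorem Vale.Agent.Results.P183.NormalClass.result {L : Type} [PartialOrder L]
    (h : Vale.Agent.P183.CongruenceNormal L) : Vale.Agent.P183.Representable L :=
  Vale.Agent.P183.representable_of_congruenceNormal h
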